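import Vale.Agent.P069.Space

namespace Vale.Agent.Results.P069.Counterexample

open Vale.Agent.P069

/-- There is a real, infinite-dimensional, reflexive Banach space that has an equivalent
asymptotically midpoint uniformly convex norm and no equivalent asymptotically uniformly
convex norm. -/
theorem result : ∃ (X : Type) (_ : NormedAddCommGroup X) (_ : NormedSpace ℝ X),
    CompleteSpace X ∧ ¬ FiniteDimensional ℝ X ∧ IsReflexive X ∧
      AMUCRenormable X ∧ ¬ AUCRenormable X :=
  Vale.Agent.P069.main

end Vale.Agent.Results.P069.Counterexample
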